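import Vale.Agent.P181.H536.HW

set_option autoImplicit false

open MvPolynomial

namespace Vale.Agent.P181.T3R

open Vale.Agent.P181 Vale.Agent.P181.H536 Vale.Agent.P181.H280

/-- Polynomials in three variables. -/
abbrev S3 : Type := MvPolynomial (Fin 3) ℂ

/-- Multilinear forms in `a` polynomials. -/
abbrev Fm (a : ℕ) : Type := MultilinearMap ℂ (fun _ : Fin a => S3) ℂ

/-- The space spanned by the first two variables. -/
noncomputable def U2 : Submodule ℂ S3 := Submodule.span ℂ {X 0, X 1}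

/-- The linear form `X 0 + x * X 1`. -/
noncomputable def ln (x : ℂ) : S3 := X 0 + x • X 1

/-- The shear `X 0 ↦ X 0 + ε * X 2`. -/
noncomputable def sh (ε : ℂ) : S3 →ₐ[ℂ] S3 := aeval ![X 0 + ε • X 2, X 1, X 2]

/-- The scaling `X 2 ↦ c * X 2`. -/
noncomputable def tau (c : ℂ) : S3 →ₐ[ℂ] S3 := aeval ![X 0, X 1, c • X 2]

lemma sh_X0 (ε : ℂ) : sh ε (X 0) = X 0 + ε • X 2 := by simp [sh]
lemma sh_X1 (ε : ℂ) : sh ε (X 1) = X 1 := by simp [sh]
lemma sh_X2 (ε : ℂ) : sh ε (X 2) = X 2 := by simp [sh]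
lemma tau_X0 (c : ℂ) : tau c (X 0) = X 0 := by simp [tau]
lemma tau_X1 (c : ℂ) : tau c (X 1) = X 1 := by simp [tau]
lemma tau_X2 (c : ℂ) : tau c (X 2) = c • X 2 := by simp [tau]

/-- All arguments are forms of degree `d`. -/
def Dg (d : ℕ) {a : ℕ} (P : Fin a → S3) : Prop := ∀ i, P i ∈ linS 3 ^ d

/-- The form vanishes in degree `b`. -/
def Van (b : ℕ) {a : ℕ} (F : Fm a) : Prop := ∀ P : Fin a → S3, Dg b P → F P = 0

/-- Invariance under the shears `sh ε` in degree `b`. -/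
def Inv (b : ℕ) {a : ℕ} (F : Fm a) : Prop :=
  ∀ (ε : ℂ) (P : Fin a → S3), Dg b P → F (fun i => sh ε (P i)) = F P

/-- In degree `b` the form is homogeneous of weight `t` for the scaling `tau`. -/
def Hom (b t : ℕ) {a : ℕ} (F : Fm a) : Prop :=
  ∀ c : ℂ, c ≠ 0 → ∀ P : Fin a → S3, Dg b P → F (fun i => tau c (P i)) = c ^ t * F P

/-- `F ((ξ + c z) h_1, …, (ξ + c z) h_a)` has degree less than `s` in `c`, for every line
`ξ = X 0 + x X 1` and all forms `h_i` of degree `b - 1`. -/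
def QQ (s b : ℕ) {a : ℕ} (F : Fm a) : Prop :=
  ∀ (x : ℂ) (h : Fin a → S3), Dg (b - 1) h →
    ∃ p : Polynomial ℂ, p.degree < (s : WithBot ℕ) ∧
      ∀ c : ℂ, p.eval c = F (fun i => (ln x + c • X 2) * h i)

/-- The forms vanish as soon as one argument is divisible by `X 2 ^ (k + 1)`. -/
def Top (b k : ℕ) {m : ℕ} (F : Fm (m + 1)) : Prop :=
  ∀ j, k < j → j ≤ b → ∀ A ∈ U2 ^ (b - j), Van b (F.curryLeft (X 2 ^ j * A))

/-- The statement `L_s(a, b, t)`. -/
def LL (s a b t : ℕ) : Prop :=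
  ∀ F : Fm a, IsSymm F → Inv b F → Hom b t F → QQ s b F → Van b F

/-- The statement `Tail(a, b, T)`. -/
def Tail (a b T : ℕ) : Prop :=
  ∀ t, t ≤ T → ∀ F : Fm a, IsSymm F → IsK (linS 3) b F → Hom b t F → Van b F

/-- The statement `K(a, b, t)`: no nonzero shear invariant form of weight `t` in the kernel. -/
def KK (a b t : ℕ) : Prop :=
  ∀ F : Fm a, IsSymm F → Inv b F → Hom b t F → IsK (linS 3) b F → Van b F

lemma U2_le : U2 ≤ linS 3 := by
  rw [U2, Submodule.span_le]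
  rintro _ (rfl | rfl)
  · exact X_mem_linS _
  · exact X_mem_linS _

lemma ln_mem_U2 (x : ℂ) : ln x ∈ U2 :=
  U2.add_mem (Submodule.subset_span (by simp))
    (U2.smul_mem _ (Submodule.subset_span (by simp)))

lemma ln_mem (x : ℂ) : ln x ∈ linS 3 := U2_le (ln_mem_U2 x)

lemma line_mem (x c : ℂ) : ln x + c • X 2 ∈ linS 3 :=
  (linS 3).add_mem (ln_mem x) ((linS 3).smul_mem _ (X_mem_linS 2))

lemma zA_mem {b k : ℕ} (hk : k ≤ b) {A : S3} (hA : A ∈ U2 ^ (b - k)) :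
    X 2 ^ k * A ∈ linS 3 ^ b := by
  have h1 : linS 3 ^ b = linS 3 ^ k * linS 3 ^ (b - k) := by
    rw [← pow_add]; congr 1; omega
  rw [h1]
  exact Submodule.mul_mem_mul (Submodule.pow_mem_pow _ (X_mem_linS 2) k)
    (pow_le_pow_left' U2_le _ hA)

lemma Dg_mul {b : ℕ} (hb : 1 ≤ b) {a : ℕ} {h : Fin a → S3} (hh : Dg (b - 1) h) {l : S3}
    (hl : l ∈ linS 3) : Dg b (fun i => l * h i) := by
  intro i
  have h1 : linS 3 ^ b = linS 3 * linS 3 ^ (b - 1) := by
    rw [← pow_succ']; congr 1; omega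
  rw [h1]
  exact Submodule.mul_mem_mul hl (hh i)

lemma sh_mem {d : ℕ} (ε : ℂ) {P : S3} (hP : P ∈ linS 3 ^ d) : sh ε P ∈ linS 3 ^ d := by
  have h1 : (linS 3 ^ d).map (sh ε).toLinearMap ≤ linS 3 ^ d := by
    rw [Submodule.map_pow]
    apply pow_le_pow_left'
    rw [linS, Submodule.map_span, Submodule.span_le]
    rintro _ ⟨_, ⟨i, rfl⟩, rfl⟩
    change sh ε (X i) ∈ linS 3
    fin_cases i
    · change sh ε (X 0) ∈ linS 3
      rw [sh_X0]
      exact (linS 3).add_mem (X_mem_linS _) ((linS 3).smul_mem _ (X_mem_linS _))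
    · change sh ε (X 1) ∈ linS 3
      rw [sh_X1]; exact X_mem_linS _
    · change sh ε (X 2) ∈ linS 3
      rw [sh_X2]; exact X_mem_linS _
  exact h1 ⟨P, hP, rfl⟩

lemma tau_mem {d : ℕ} (c : ℂ) {P : S3} (hP : P ∈ linS 3 ^ d) : tau c P ∈ linS 3 ^ d := by
  have h1 : (linS 3 ^ d).map (tau c).toLinearMap ≤ linS 3 ^ d := by
    rw [Submodule.map_pow]
    apply pow_le_pow_left'
    rw [linS, Submodule.map_span, Submodule.span_le]
    rintro _ ⟨_, ⟨i, rfl⟩, rfl⟩
    change tau c (X i) ∈ linS 3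
    fin_cases i
    · change tau c (X 0) ∈ linS 3
      rw [tau_X0]; exact X_mem_linS _
    · change tau c (X 1) ∈ linS 3
      rw [tau_X1]; exact X_mem_linS _
    · change tau c (X 2) ∈ linS 3
      rw [tau_X2]; exact (linS 3).smul_mem _ (X_mem_linS _)
  exact h1 ⟨P, hP, rfl⟩

lemma tau_U2 {d : ℕ} (c : ℂ) {A : S3} (hA : A ∈ U2 ^ d) : tau c A = A := by
  have h0 : ∀ u ∈ U2, tau c u = u := by
    intro u hu
    obtain ⟨α, β, rfl⟩ := Submodule.mem_span_pair.1 hu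
    rw [map_add, map_smul, map_smul, tau_X0, tau_X1]
  induction d generalizing A with
  | zero =>
    rw [pow_zero, Submodule.mem_one] at hA
    obtain ⟨r, rfl⟩ := hA
    exact AlgHom.commutes _ _
  | succ d ih =>
    rw [pow_succ] at hA
    induction hA using Submodule.mul_induction_on' with
    | mem_mul_mem x hx y hy => rw [map_mul, ih hx, h0 y hy]
    | add x _ y _ hx hy => rw [map_add, hx, hy]

lemma QQ.mono {s s' b a : ℕ} {F : Fm a} (h : QQ s b F) (hs : s ≤ s') : QQ s' b F := by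
  intro x g hg
  obtain ⟨p, hp, hp'⟩ := h x g hg
  exact ⟨p, lt_of_lt_of_le hp (by exact_mod_cast hs), hp'⟩

lemma Tail.mono {a b T T' : ℕ} (h : Tail a b T) (hT : T' ≤ T) : Tail a b T' :=
  fun t ht F hs hK hH => h t (ht.trans hT) F hs hK hH

end Vale.Agent.P181.T3R
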