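import Vale.Agent.P181.R2.H556.JLight

/-!
P181, three rows: vanishing of the forms with `QQ s`, the improved form.
-/

set_option autoImplicit false

open MvPolynomial

namespace Vale.Agent.P181.TM

open Vale.Agent.P181 Vale.Agent.P181.H536 Vale.Agent.P181.H280 Vale.Agent.P181.TN

/-- The statement of `joint`. -/
def Joint : Prop :=
  ∀ {h m b s τ : ℕ}, 1 ≤ s → 1 ≤ b → ∀ (d : Fin h → ℕ) (R : Fam 1 h m),
    InvR b d R → HomR b d τ R → (∀ B, DgV d B → QQ s b (R B)) →
    2 * ∑ i, d i + 3 * ((s - 1) * b) < 6 * τ → ∀ B, DgV d B → IsK (linS (1 + 2)) b (R B)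

/-- The statement of `zero_of_isK`. -/
def ZeroOfIsK (n : ℕ) : Prop :=
  ∀ {h m b τ : ℕ} (d : Fin h → ℕ) (R : Fam n h m), (∀ B, IsSymm (R B)) → InvR b d R →
    HomR b d τ R → (∀ B, DgV d B → IsK (linS (n + 2)) b (R B)) →
    (∀ t', t' ≤ τ → KK2 n m b t') → ∀ B, DgV d B → Van b (R B)

lemma killR_of_first {n h m b e : ℕ} {d : Fin h → ℕ} {R : Fam n h (m + 1)}
    (hsy : ∀ B, IsSymm (R B))
    (hk : ∀ B : Fin h → Sn n, DgV d B → ∀ w ∈ ZZ n ^ e, ∀ C ∈ linS (n + 2) ^ (b - e),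
      Van b ((R B).curryLeft (w * C))) : KillR b e d R := by
  rintro B hB P hP ⟨i, w, hw, Q, hQ, hi⟩
  have h1 := hsy B (Equiv.swap 0 i) P
  rw [← h1]
  have h2 : (fun j => P (Equiv.swap 0 i j)) =
      Fin.cons (w * Q) (fun j : Fin m => P (Equiv.swap 0 i j.succ)) := by
    funext j
    refine Fin.cases ?_ (fun j => ?_) j
    · rw [Fin.cons_zero, Equiv.swap_apply_left, hi]
    · rw [Fin.cons_succ]
  rw [h2, ← MultilinearMap.curryLeft_apply]
  exact hk B hB w hw Q hQ _ (fun j => hP _)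

lemma cons_const (h e : ℕ) :
    (Fin.cons e (fun _ : Fin h => e) : Fin (h + 1) → ℕ) = fun _ => e := by
  funext i
  refine Fin.cases ?_ (fun j => ?_) i
  · rw [Fin.cons_zero]
  · rw [Fin.cons_succ]

/-- From the vanishing of the families with one more heavy slot. -/
lemma kill_of_heavy (lemmaV : LemV 1) {a b m h s τ : ℕ} (hab : 2 * a ≤ b) (hma : m + 1 ≤ a)
    (R : Fam 1 h (m + 1)) (hs : 1 ≤ s) (hsy : ∀ B, IsSymm (R B))
    (hI : InvR b (fun _ => b - a) R) (hH : HomR b (fun _ => b - a) τ R)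
    (hQ : ∀ B, DgV (fun _ => b - a) B → QQ s b (R B))
    (hlt : 2 * (h * (b - a)) + 2 * ((s - 1) * (b + 2 * a)) + a * (a - 1) < 6 * τ)
    (ih : ∀ (s τ' : ℕ) (R : Fam 1 (h + 1) m), 1 ≤ s → τ' ≤ τ → (∀ B, IsSymm (R B)) →
      InvR b (fun _ => b - a) R → HomR b (fun _ => b - a) τ' R →
      (∀ B, DgV (fun _ => b - a) B → QQ s b (R B)) →
      2 * ((h + 1) * (b - a)) + 2 * ((s - 1) * (b + 2 * a)) + a * (a - 1) < 6 * τ' →
      ∀ B, DgV (fun _ => b - a) B → Van b (R B)) : KillR b a (fun _ => b - a) R := by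
  apply killR_of_first hsy
  intro B hB v hv C hC
  have hQ' : ∀ B' : Fin (h + 1) → Sn 1, DgV (fun _ => b - a) B' →
      QQ (s - 1) b (heavyR v R B') := by
    intro B' hB'
    rw [heavyR_apply]
    exact heavy_full (by omega) hs (by omega) hma _ (hQ _ (fun i => hB' i.succ)) hv (hB' 0)
  have hB' : DgV (fun _ => b - a) (Fin.cons C B : Fin (h + 1) → Sn 1) := by
    intro i
    refine Fin.cases ?_ (fun j => ?_) i
    · simpa using hC
    · simpa using hB j
  have hgoal : Van b (heavyR v R (Fin.cons C B)) := by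
    rcases Nat.lt_or_ge s 2 with hs2 | hs2
    · have hs1 : s - 1 = 0 := by omega
      have h5 := hQ' _ hB'
      rw [hs1] at h5
      exact lemmaV (by omega) (by omega) _ h5
    · obtain ⟨s', rfl⟩ : ∃ s', s = s' + 2 := ⟨s - 2, by omega⟩
      have e1 : s' + 2 - 1 = s' + 1 := rfl
      rw [e1] at hlt hQ'
      have haτ : a ≤ τ := by
        have h1 : 1 * (b + 2 * a) ≤ (s' + 1) * (b + 2 * a) := Nat.mul_le_mul_right _ (by omega)
        omega
      have hI' := inv_heavy (k := a) (by omega) R hI hv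
      have hH' := hom_heavy (k := a) (by omega) haτ R hH hv
      rw [cons_const] at hI' hH'
      refine ih (s' + 1) (τ - a) (heavyR v R) (by omega) (Nat.sub_le _ _) ?_ hI' hH' hQ' ?_ _ hB'
      · intro B'
        rw [heavyR_apply]
        exact (hsy _).curryLeft _
      · have e2 : s' + 1 - 1 = s' := rfl
        rw [e2]
        obtain ⟨τ', rfl⟩ : ∃ τ', τ = τ' + a := ⟨τ - a, by omega⟩
        obtain ⟨b', rfl⟩ : ∃ b', b = b' + a := ⟨b - a, by omega⟩
        simp only [Nat.add_sub_cancel] at hlt ⊢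
        have h6 : (h + 1) * b' = h * b' + b' := by ring
        have h7 : (s' + 1) * (b' + a + 2 * a) = s' * (b' + a + 2 * a) + (b' + 3 * a) := by ring
        omega
  have h9 : heavyR v R (Fin.cons C B) = (R B).curryLeft (v * C) := by
    rw [heavyR_apply, Fin.cons_zero]
    rfl
  rw [h9] at hgoal
  exact hgoal

/-- **The core with heavy slots.** -/
theorem jcore (third : Third 1) (lemmaV : LemV 1) (joint : Joint) (zk : ZeroOfIsK 1)
    {a b T : ℕ} (hab : 2 * a ≤ b)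
    (hKK : ∀ a', a' < a → ∀ t', t' ≤ T → KK2 1 a' b t') :
    ∀ (m h s τ : ℕ) (R : Fam 1 h m), 1 ≤ s → m < a → τ ≤ T → (∀ B, IsSymm (R B)) →
      InvR b (fun _ => b - a) R → HomR b (fun _ => b - a) τ R →
      (∀ B, DgV (fun _ => b - a) B → QQ s b (R B)) →
      2 * (h * (b - a)) + 2 * ((s - 1) * (b + 2 * a)) + a * (a - 1) < 6 * τ →
      ∀ B, DgV (fun _ => b - a) B → Van b (R B) := by
  intro m
  induction m with
  | zero =>
    intro h s τ R hs hm hτ hsy hI hH hQ hlt B hB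
    refine light_core (c := a - 1) third lemmaV 0 h (fun _ => b - a) s τ R hs (by omega)
      (by omega) (by omega) hI hH hQ ?_ ?_ B hB
    · rintro B hB P hP ⟨i, _⟩
      exact i.elim0
    · rw [Finset.sum_const, Finset.card_univ, Fintype.card_fin, smul_eq_mul]
      have h1 : (s - 1) * (a - 1) ≤ (s - 1) * (b + 2 * a) := Nat.mul_le_mul_left _ (by omega)
      have h2 : (s - 1) * (3 * (a - 1)) ≤ (s - 1) * (b + 2 * a) := Nat.mul_le_mul_left _ (by omega)
      have h3 : (s - 1) * (3 * (a - 1)) = 3 * ((s - 1) * (a - 1)) := by ring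
      omega
  | succ m ih =>
    intro h s τ R hs hm hτ hsy hI hH hQ hlt
    have hkill : KillR b a (fun _ => b - a) R :=
      kill_of_heavy lemmaV hab (by omega) R hs hsy hI hH hQ hlt
        (fun s τ' R hs hτ' hsy hI hH hQ hlt =>
          ih (h + 1) s τ' R hs (by omega) (hτ'.trans hτ) hsy hI hH hQ hlt)
    by_cases hl : 2 * (h * (b - a)) + 3 * ((m + 1) * m + 2 * ((s - 1) * (a - 1))) < 6 * τ
    · refine light_core (c := a - 1) third lemmaV (m + 1) h (fun _ => b - a) s τ R hs (by omega)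
        (by omega) (by omega) hI hH hQ ?_ ?_
      · have e1 : a - 1 + 1 = a := by omega
        rw [e1]
        exact hkill
      · rw [Finset.sum_const, Finset.card_univ, Fintype.card_fin, smul_eq_mul,
          Nat.add_sub_cancel]
        omega
    · refine zk (fun _ => b - a) R hsy hI hH ?_ (fun t' ht' => hKK (m + 1) hm t' (ht'.trans hτ))
      refine joint hs (by omega) (fun _ => b - a) R hI hH hQ ?_
      rw [Finset.sum_const, Finset.card_univ, Fintype.card_fin, smul_eq_mul]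
      have h1 : (m + 1) * m ≤ a * (a - 1) := Nat.mul_le_mul (by omega) (by omega)
      have h2 : (s - 1) * (b + 2 * a) = (s - 1) * b + 2 * ((s - 1) * a) := by ring
      have h3 : (s - 1) * (a - 1) ≤ (s - 1) * a := Nat.mul_le_mul_left _ (by omega)
      omega

/-- **`LJ`.** -/
theorem LJ_of (third : Third 1) (lemmaV : LemV 1) (joint : Joint) (zk : ZeroOfIsK 1)
    {a b s t : ℕ} (ha : 1 ≤ a) (hs : 1 ≤ s) (hb : 2 * a ≤ b)
    (hKK : ∀ a', a' < a → ∀ t', t' ≤ t → KK2 1 a' b t')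
    (h0 : a * (a - 1) + 2 * ((s - 1) * (a - 1)) < 2 * t)
    (h1 : 2 * ((s - 1) * (b + 2 * a)) + a * (a - 1) < 6 * t)
    (F : Fm 1 a) (hsy : IsSymm F) (hI : Inv2 b F) (hH : Hom b t F) (hQ : QQ s b F) :
    Van b F := by
  obtain ⟨m, rfl⟩ : ∃ m, a = m + 1 := ⟨a - 1, by omega⟩
  let R : Fam 1 0 (m + 1) := MultilinearMap.constOfIsEmpty ℂ (fun _ : Fin 0 => Sn 1) F
  have hR : ∀ B, R B = F := fun B => rfl
  have hI' : InvR b (fun _ : Fin 0 => b - (m + 1)) R := fun z hz w hw B hB P hP => hI z hz w hw P hP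
  have hH' : HomR b (fun _ : Fin 0 => b - (m + 1)) t R := fun c hc B hB P hP => hH c hc P hP
  have hkill : KillR b (m + 1) (fun _ : Fin 0 => b - (m + 1)) R := by
    refine kill_of_heavy lemmaV hb le_rfl R hs (fun B => hsy) hI' hH' (fun B hB => hQ) ?_ ?_
    · omega
    · intro s τ' R hs hτ' hsy hI hH hQ hlt
      exact jcore third lemmaV joint zk hb hKK m 1 s τ' R hs (by omega) hτ' hsy hI hH hQ hlt
  have h2 := light_core (c := m) third lemmaV (m + 1) 0 (fun _ => b - (m + 1)) s t R hs hb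
    le_rfl (by omega) hI' hH' (fun B hB => hQ) hkill ?_ (fun i => i.elim0) (fun i => i.elim0)
  · exact h2
  · rw [Finset.univ_eq_empty, Finset.sum_empty, Nat.add_sub_cancel]
    rw [Nat.add_sub_cancel] at h0
    omega

/-- **The step `J`.** -/
theorem KK2_stepJ_of (third : Third 1) (lemmaV : LemV 1) (joint : Joint) (zk : ZeroOfIsK 1)
    (tstep2 : ∀ {s a b t : ℕ}, 1 ≤ s → (∀ t', t' + s ≤ t → KK2 1 a b t') → ∀ F : Fm 1 a,
      IsSymm F → Inv2 (b + 1) F → Hom (b + 1) t F → IsK (linS (1 + 2)) (b + 1) F →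
      QQ s (b + 1) F)
    {a b s t : ℕ} (ha : 1 ≤ a) (hs : 1 ≤ s) (hb : 2 * a ≤ b + 1)
    (hKK : ∀ a', a' < a → ∀ t', t' ≤ t → KK2 1 a' (b + 1) t')
    (hK : ∀ t', t' + s ≤ t → KK2 1 a b t')
    (h0 : a * (a - 1) + 2 * ((s - 1) * (a - 1)) < 2 * t)
    (h1 : 2 * ((s - 1) * (b + 1 + 2 * a)) + a * (a - 1) < 6 * t) : KK2 1 a (b + 1) t :=
  fun F hsy hI hH hF =>
    LJ_of third lemmaV joint zk ha hs hb hKK h0 h1 F hsy hI hH (tstep2 hs hK F hsy hI hH hF)

end Vale.Agent.P181.TM
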