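import Vale.Agent.P181.R2.H151.Step

/-!
P181: families of forms with heavy slots, all the remaining slots light.
-/

set_option autoImplicit false

open MvPolynomial

namespace Vale.Agent.P181.TM

open Vale.Agent.P181 Vale.Agent.P181.H536 Vale.Agent.P181.H280 Vale.Agent.P181.TN

/-- The family vanishes as soon as one slot has order at least `e` in the last variables. -/
def KillR (b e : ℕ) {n h m : ℕ} (d : Fin h → ℕ) (R : Fam n h m) : Prop :=
  ∀ B : Fin h → Sn n, DgV d B → ∀ P : Fin m → Sn n, Dg b P →
    (∃ i, ∃ w ∈ ZZ n ^ e, ∃ Q ∈ linS (n + 2) ^ (b - e), P i = w * Q) → R B P = 0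

lemma KillR.fix {n h m b e : ℕ} {d : Fin h → ℕ} {R : Fam n h (m + 1)} (hK : KillR b e d R)
    {x : Sn n} (hx : x ∈ linS (n + 2) ^ b) : KillR b e d (fixR x R) := by
  rintro B hB P hP ⟨i, w, hw, Q, hQ, hi⟩
  rw [fixR_apply, MultilinearMap.curryLeft_apply]
  refine hK B hB _ (Dg_cons hx hP) ⟨i.succ, w, hw, Q, hQ, ?_⟩
  rw [Fin.cons_succ, hi]

/-- **The core with light slots.** -/
theorem light_core {n b c : ℕ} (third : Third n) (lemmaV : LemV n) :
    ∀ (m h : ℕ) (d : Fin h → ℕ) (s τ : ℕ) (R : Fam n h m), 1 ≤ s → 2 * m ≤ b → m ≤ c + 1 →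
      c + 1 ≤ b → InvR b d R → HomR b d τ R → (∀ B : Fin h → Sn n, DgV d B → QQ s b (R B)) →
      KillR b (c + 1) d R →
      2 * (n * ∑ i, d i) + (n + 2) * (m * (m - 1) + 2 * ((s - 1) * c)) < 2 * ((n + 2) * τ) →
      ∀ B : Fin h → Sn n, DgV d B → Van b (R B) := by
  intro m
  induction m with
  | zero =>
    intro h d s τ R hs hb hmc hcb hI hH hQ hK hlt B hB P hP
    let ev : Fm n 0 →ₗ[ℂ] ℂ :=
      { toFun := fun F => F (fun i => i.elim0)
        map_add' := fun _ _ => rfl
        map_smul' := fun _ _ => rfl }
    have h1 := third (τ := τ) d (ev.compMultilinearMap R) ?_ ?_ ?_ B hB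
    · have h2 : P = fun i => i.elim0 := Subsingleton.elim _ _
      rw [h2]
      exact h1
    · intro z hz w hw C hC
      have h2 := hI z hz w hw C hC (fun i => i.elim0) (fun i => i.elim0)
      have h3 : (fun i : Fin 0 => shr n z w ((fun i => i.elim0 : Fin 0 → Sn n) i)) =
          fun i => i.elim0 := Subsingleton.elim _ _
      rw [h3] at h2
      exact h2
    · intro c hc C hC
      have h2 := hH c hc C hC (fun i => i.elim0) (fun i => i.elim0)
      have h3 : (fun i : Fin 0 => scal n c ((fun i => i.elim0 : Fin 0 → Sn n) i)) =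
          fun i => i.elim0 := Subsingleton.elim _ _
      rw [h3] at h2
      exact h2
    · have h4 : 2 * (n * ∑ i, d i) < 2 * ((n + 2) * τ) := lt_of_le_of_lt (Nat.le_add_right _ _) hlt
      omega
  | succ m ih =>
    intro h d s τ R hs hb hmc hcb hI hH hQ hK hlt
    rw [Nat.add_sub_cancel] at hlt
    -- descent on the exponent
    have hmain : ∀ N k, k ≤ b → b - k ≤ N → ∀ v ∈ ZZ n ^ k, ∀ A ∈ U2 n ^ (b - k),
        ∀ B : Fin h → Sn n, DgV d B → Van b ((R B).curryLeft (v * A)) := by
      -- killed exponents
      have hkill : ∀ k, k ≤ b → c + 1 ≤ k → ∀ v ∈ ZZ n ^ k, ∀ A ∈ U2 n ^ (b - k),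
          ∀ B : Fin h → Sn n, DgV d B → Van b ((R B).curryLeft (v * A)) := by
        intro k hkb hck v hv A hA B hB P hP
        have h1 : k = (c + 1) + (k - (c + 1)) := by omega
        rw [h1, pow_add] at hv
        induction hv using Submodule.mul_induction_on' with
        | mem_mul_mem x hx y hy =>
          rw [mul_assoc, MultilinearMap.curryLeft_apply]
          have h2 : y * A ∈ linS (n + 2) ^ (b - (c + 1)) := by
            have h3 : linS (n + 2) ^ (b - (c + 1)) =
                linS (n + 2) ^ (k - (c + 1)) * linS (n + 2) ^ (b - k) := by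
              rw [← pow_add]; congr 1; omega
            rw [h3]
            exact Submodule.mul_mem_mul (pow_le_pow_left' ZZ_le _ hy)
              (pow_le_pow_left' U2_le _ hA)
          have h4 : x * (y * A) ∈ linS (n + 2) ^ b := by
            have h3 : linS (n + 2) ^ b =
                linS (n + 2) ^ (c + 1) * linS (n + 2) ^ (b - (c + 1)) := by
              rw [← pow_add]; congr 1; omega
            rw [h3]
            exact Submodule.mul_mem_mul (pow_le_pow_left' ZZ_le _ hx) h2
          refine hK B hB _ (Dg_cons h4 hP) ⟨0, x, hx, y * A, h2, ?_⟩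
          rw [Fin.cons_zero]
        | add x _ y _ hx hy =>
          rw [add_mul, map_add, _root_.add_apply, hx, hy, add_zero]
      intro N
      induction N with
      | zero =>
        intro k hk hN v hv A hA B hB
        exact hkill k hk (by omega) v hv A hA B hB
      | succ N ihN =>
        intro k hk hN v hv A hA
        have hT : TopR b k d R := by
          intro j hj hjb w hw A' hA' B hB
          exact ihN j hjb (by omega) w hw A' hA' B hB
        rcases Nat.lt_or_ge c k with hck | hck
        · intro B hB
          exact hkill k hk (by omega) v hv A hA B hB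
        have hvA : v * A ∈ linS (n + 2) ^ b := wA_mem hk hv hA
        have hτ : (m + 1) * m + 2 * ((s - 1) * c) < 2 * τ := by
          have h1 : (n + 2) * ((m + 1) * m + 2 * ((s - 1) * c)) < (n + 2) * (2 * τ) := by
            have h2 : 2 * ((n + 2) * τ) = (n + 2) * (2 * τ) := by ring
            rw [← h2]
            exact lt_of_le_of_lt (Nat.le_add_left _ _) hlt
          exact lt_of_mul_lt_mul_left h1 (Nat.zero_le _)
        rcases Nat.lt_or_ge m k with hkm | hkm
        · -- a slot of large order: `s` drops
          have hQ' : ∀ B : Fin h → Sn n, DgV d B → QQ (s - 1) b (fixR (v * A) R B) := by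
            intro B hB
            rw [fixR_apply]
            exact heavy_full (by omega) hs hk (by omega) (R B) (hQ B hB) hv
              (pow_le_pow_left' U2_le _ hA)
          rcases Nat.lt_or_ge s 2 with hs2 | hs2
          · intro B hB
            have hs1 : s - 1 = 0 := by omega
            have h5 := hQ' B hB
            rw [hs1, fixR_apply] at h5
            exact lemmaV (by omega) (by omega) _ h5
          · have hkτ : k ≤ τ := by
              have h1 : 1 * c ≤ (s - 1) * c := Nat.mul_le_mul_right _ (by omega)
              omega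
            refine ih h d (s - 1) (τ - k) (fixR (v * A) R) (by omega) (by omega) (by omega) hcb
              (inv_fix hk R hI hT hv hA) (hom_fix hk hkτ R hH hv hA) hQ' (hK.fix hvA) ?_
            obtain ⟨τ', rfl⟩ : ∃ τ', τ = τ' + k := ⟨τ - k, by omega⟩
            obtain ⟨s', rfl⟩ : ∃ s', s = s' + 2 := ⟨s - 2, by omega⟩
            simp only [Nat.add_sub_cancel]
            have e1 : s' + 2 - 1 = s' + 1 := rfl
            rw [e1] at hlt ⊢
            have e2 : s' + 1 - 1 = s' := rfl
            rw [e2]
            have h6 : (n + 2) * ((m + 1) * m + 2 * ((s' + 1) * c)) =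
                (n + 2) * (m * (m - 1) + 2 * (s' * c)) + 2 * ((n + 2) * m) + 2 * ((n + 2) * c) := by
              rcases Nat.eq_zero_or_pos m with rfl | hm
              · simp; ring
              · obtain ⟨m', rfl⟩ : ∃ m', m = m' + 1 := ⟨m - 1, by omega⟩
                rw [Nat.add_sub_cancel]; ring
            have h8 : 2 * ((n + 2) * (τ' + k)) = 2 * ((n + 2) * τ') + 2 * ((n + 2) * k) := by ring
            have h9 : (n + 2) * k ≤ (n + 2) * c := Nat.mul_le_mul_left _ hck
            omega
        · -- light
          have hQ' : ∀ B : Fin h → Sn n, DgV d B → QQ s b (fixR (v * A) R B) := by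
            intro B hB
            rw [fixR_apply]
            refine light hs (by omega) (by omega) (R B) (hQ B hB) ?_ hv hA
            intro j hj hjb w hw A' hA'
            exact hT j hj hjb w hw A' hA' B hB
          have hkτ : k ≤ τ := by
            have h1 : 1 * m ≤ (m + 1) * m := Nat.mul_le_mul_right _ (by omega)
            rcases Nat.eq_zero_or_pos m with h2 | h2
            · omega
            · have h3 : 2 * m ≤ (m + 1) * m := Nat.mul_le_mul_right _ (by omega)
              omega
          refine ih h d s (τ - k) (fixR (v * A) R) hs (by omega) (by omega) hcb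
            (inv_fix hk R hI hT hv hA) (hom_fix hk hkτ R hH hv hA) hQ' (hK.fix hvA) ?_
          obtain ⟨τ', rfl⟩ : ∃ τ', τ = τ' + k := ⟨τ - k, by omega⟩
          simp only [Nat.add_sub_cancel]
          have h6 : (n + 2) * ((m + 1) * m + 2 * ((s - 1) * c)) =
              (n + 2) * (m * (m - 1) + 2 * ((s - 1) * c)) + 2 * ((n + 2) * m) := by
            rcases Nat.eq_zero_or_pos m with rfl | hm
            · simp
            · obtain ⟨m', rfl⟩ : ∃ m', m = m' + 1 := ⟨m - 1, by omega⟩
              rw [Nat.add_sub_cancel]; ring
          have h8 : 2 * ((n + 2) * (τ' + k)) = 2 * ((n + 2) * τ') + 2 * ((n + 2) * k) := by ring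
          have h9 : (n + 2) * k ≤ (n + 2) * m := Nat.mul_le_mul_left _ hkm
          omega
    intro B hB P hP
    let W : Submodule ℂ (Sn n) :=
      LinearMap.ker ({ toFun := fun u => (R B).curryLeft u (fun i => P i.succ)
                       map_add' := fun x y => by rw [map_add]; rfl
                       map_smul' := fun c x => by rw [map_smul]; rfl } : Sn n →ₗ[ℂ] ℂ)
    have h2 : linS (n + 2) ^ b ≤ W := by
      apply linS_pow_le
      intro k hk w hw A hA
      exact hmain b k hk (by omega) w hw A hA B hB (fun i => P i.succ) (fun i => hP i.succ)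
    have h3 : (R B).curryLeft (P 0) (fun i => P i.succ) = 0 := h2 (hP 0)
    rw [MultilinearMap.curryLeft_apply] at h3
    rw [← h3]
    congr 1
    funext i
    refine Fin.cases ?_ (fun i => ?_) i
    · rfl
    · rfl

end Vale.Agent.P181.TM
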