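import Vale.Agent.P181.R2.H553.CDefs
import Mathlib.GroupTheory.Perm.Fin
import Mathlib.Data.List.GetD

/-!
P181: a computable criterion for `Pos r c 3 lam`, by symmetrization of a product of brackets at
integer points.
-/

set_option autoImplicit false

open MvPolynomial

namespace Vale.Agent.P181.H556C

open Vale.Agent.P181 Vale.Agent.P181.H280 Vale.Agent.P181.H553 Vale.Agent.P181.FR

section Sym

variable {α : Type*}

/-- Pick an element `b` of the list and put `a` in its place. -/
def repl (a : α) : List α → List (α × List α)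
  | [] => []
  | b :: l => (b, a :: l) :: (repl a l).map (fun x => (x.1, b :: x.2))

/-- All ways to pick an element. -/
def picks : List α → List (α × List α)
  | [] => []
  | a :: l => (a, l) :: repl a l

lemma sum_repl (a : α) : ∀ (n : ℕ) (q : Fin n → α) (F : α × List α → ℤ),
    ((repl a (List.ofFn q)).map F).sum =
      ∑ j : Fin n, F (q j, List.ofFn (Function.update q j a)) := by
  intro n
  induction n with
  | zero => intro q F; simp [repl]
  | succ n ih =>
    intro q F
    rw [List.ofFn_succ, repl, List.map_cons, List.sum_cons, List.map_map,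
      ih (fun i => q i.succ) (F ∘ fun x => (x.1, q 0 :: x.2)), Fin.sum_univ_succ]
    have e1 : a :: List.ofFn (fun i => q i.succ) = List.ofFn (Function.update q 0 a) := by
      rw [List.ofFn_succ, Function.update_self]
      have : (fun i : Fin n => Function.update q 0 a i.succ) = fun i => q i.succ := by
        funext i
        rw [Function.update_of_ne (Fin.succ_ne_zero i)]
      rw [this]
    have e2 : ∀ j : Fin n, q 0 :: List.ofFn (Function.update (fun i => q i.succ) j a) =
        List.ofFn (Function.update q j.succ a) := by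
      intro j
      rw [List.ofFn_succ, Function.update_of_ne (Fin.succ_ne_zero j).symm]
      have : (fun i : Fin n => Function.update q j.succ a i.succ) =
          Function.update (fun i => q i.succ) j a := by
        funext i
        rcases eq_or_ne i j with rfl | hij
        · rw [Function.update_self, Function.update_self]
        · rw [Function.update_of_ne hij, Function.update_of_ne
            (fun h => hij (Fin.succ_injective _ h))]
      rw [this]
    rw [e1]
    congr 1
    apply Finset.sum_congr rfl
    intro j _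
    rw [← e2]
    rfl

/-- Sum of `g` over all the arrangements. -/
def symL (g : List α → ℤ) : ℕ → List α → List α → ℤ
  | 0, _, acc => g acc
  | n + 1, rem, acc => ((picks rem).map fun x => symL g n x.2 (acc ++ [x.1])).sum

theorem symL_eq (g : List α → ℤ) : ∀ (n : ℕ) (p : Fin n → α) (acc : List α),
    symL g n (List.ofFn p) acc =
      ∑ σ : Equiv.Perm (Fin n), g (acc ++ List.ofFn (fun i => p (σ i))) := by
  intro n
  induction n with
  | zero => intro p acc; simp [symL]
  | succ n ih =>
    intro p acc
    have h1 : ∑ σ : Equiv.Perm (Fin (n + 1)), g (acc ++ List.ofFn (fun i => p (σ i))) =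
        ∑ i : Fin (n + 1), ∑ τ : Equiv.Perm (Fin n),
          g (acc ++ [p i] ++ List.ofFn (fun x : Fin n => p (Equiv.swap 0 i (τ x).succ))) := by
      rw [← Equiv.sum_comp (Equiv.Perm.decomposeFin (n := n)).symm, Fintype.sum_prod_type]
      apply Finset.sum_congr rfl
      intro i _
      apply Finset.sum_congr rfl
      intro τ _
      congr 1
      rw [List.ofFn_succ, List.append_assoc, List.singleton_append,
        Equiv.Perm.decomposeFin_symm_apply_zero]
      congr 3
      funext x
      rw [Equiv.Perm.decomposeFin_symm_apply_succ]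
    rw [h1, Fin.sum_univ_succ, symL, List.ofFn_succ, picks, List.map_cons, List.sum_cons,
      sum_repl, ih (fun i => p i.succ)]
    have e1 : ∀ τ : Equiv.Perm (Fin n), (fun x : Fin n => p (Equiv.swap 0 0 (τ x).succ)) =
        fun x => p (τ x).succ := by
      intro τ
      funext x
      rw [Equiv.swap_self, Equiv.refl_apply]
    have e2 : ∀ (j : Fin n) (τ : Equiv.Perm (Fin n)),
        (fun x : Fin n => p (Equiv.swap 0 j.succ (τ x).succ)) =
          fun x => Function.update (fun i : Fin n => p i.succ) j (p 0) (τ x) := by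
      intro j τ
      funext x
      rcases eq_or_ne (τ x) j with h | h
      · rw [h, Function.update_self, Equiv.swap_apply_right]
      · rw [Function.update_of_ne h, Equiv.swap_apply_of_ne_of_ne (Fin.succ_ne_zero _)
          (fun h' => h (Fin.succ_injective _ h'))]
    simp only [e1, e2]
    congr 1
    apply Finset.sum_congr rfl
    intro j _
    rw [ih]

lemma symL_congr {g g' : List α → ℤ} : ∀ (n : ℕ) (rem acc : List α),
    (∀ rest, g (acc ++ rest) = g' (acc ++ rest)) → symL g n rem acc = symL g' n rem acc := by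
  intro n
  induction n with
  | zero =>
    intro rem acc h
    have h1 := h []
    rw [List.append_nil] at h1
    exact h1
  | succ n ih =>
    intro rem acc h
    rw [symL, symL]
    congr 1
    apply List.map_congr_left
    intro x _
    apply ih
    intro rest
    rw [List.append_assoc]
    exact h _

lemma symL_mul {g : List α → ℤ} (c : ℤ) : ∀ (n : ℕ) (rem acc : List α),
    symL (fun l => c * g l) n rem acc = c * symL g n rem acc := by
  intro n
  induction n with
  | zero => intro rem acc; rfl
  | succ n ih =>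
    intro rem acc
    rw [symL, symL, ← List.sum_map_mul_left]
    congr 1
    apply List.map_congr_left
    intro x _
    exact ih _ _

end Sym

/-- Integer points. -/
abbrev P3 : Type := ℤ × ℤ × ℤ

/-- A factor: bracket, minor of the first two coordinates, first coordinate; with exponent. -/
inductive Fac : Type
  | b (i j k e : ℕ) : Fac
  | m (i j e : ℕ) : Fac
  | x (i e : ℕ) : Fac

/-- The determinant. -/
def det3 (p q r : P3) : ℤ :=
  p.1 * (q.2.1 * r.2.2 - q.2.2 * r.2.1) - p.2.1 * (q.1 * r.2.2 - q.2.2 * r.1) +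
    p.2.2 * (q.1 * r.2.1 - q.2.1 * r.1)

/-- The minor. -/
def det2 (p q : P3) : ℤ := p.1 * q.2.1 - p.2.1 * q.1

/-- Powers. -/
def pw (z : ℤ) : ℕ → ℤ
  | 0 => 1
  | n + 1 => z * pw z n

lemma pw_eq (z : ℤ) (n : ℕ) : pw z n = z ^ n := by
  induction n with
  | zero => rw [pow_zero]; rfl
  | succ n ih => rw [pw, ih, pow_succ']

/-- The value of a factor. -/
def Fac.val (l : List P3) : Fac → ℤ
  | .b i j k e => pw (det3 (l.getD i 0) (l.getD j 0) (l.getD k 0)) e
  | .m i j e => pw (det2 (l.getD i 0) (l.getD j 0)) e
  | .x i e => pw (l.getD i 0).1 e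

/-- All indices are less than `n`. -/
def Fac.lt (n : ℕ) : Fac → Bool
  | .b i j k _ => decide (i < n) && decide (j < n) && decide (k < n)
  | .m i j _ => decide (i < n) && decide (j < n)
  | .x i _ => decide (i < n)

/-- The degree in the point `l`. -/
def Fac.deg (l : ℕ) : Fac → ℕ
  | .b i j k e => e * ((if i = l then 1 else 0) + (if j = l then 1 else 0) +
      (if k = l then 1 else 0))
  | .m i j e => e * ((if i = l then 1 else 0) + (if j = l then 1 else 0))
  | .x i e => e * (if i = l then 1 else 0)

/-- The weight. -/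
def Fac.wt : Fac → Fin 3 → ℕ
  | .b _ _ _ e => ![e, e, e]
  | .m _ _ e => ![e, e, 0]
  | .x _ e => ![e, 0, 0]

/-- The product of the values. -/
def valL (fs : List Fac) (l : List P3) : ℤ := (fs.map (Fac.val l)).prod

/-- The product over all the levels. -/
def valLL (lev : List (List Fac)) (l : List P3) : ℤ := (lev.map fun fs => valL fs l).prod

/-- The pruned recursion. -/
def go : List (List Fac) → List P3 → List P3 → ℤ
  | [], _, _ => 1
  | fs :: lev, rem, acc => ((picks rem).map fun x =>
      if valL fs (acc ++ [x.1]) = 0 then 0 else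
        valL fs (acc ++ [x.1]) * go lev x.2 (acc ++ [x.1])).sum

/-- The factors of level `j` use points of index less than `n + j + 1` only. -/
def okL : List (List Fac) → ℕ → Bool
  | [], _ => true
  | fs :: lev, n => fs.all (Fac.lt (n + 1)) && okL lev (n + 1)

lemma val_append {n : ℕ} {f : Fac} (hf : f.lt n = true) {acc rest : List P3}
    (hn : acc.length = n) : f.val (acc ++ rest) = f.val acc := by
  subst hn
  cases f with
  | b i j k e =>
    simp only [Fac.lt, Bool.and_eq_true, decide_eq_true_eq] at hf
    simp only [Fac.val, List.getD_append _ _ _ _ hf.1.1, List.getD_append _ _ _ _ hf.1.2,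
      List.getD_append _ _ _ _ hf.2]
  | m i j e =>
    simp only [Fac.lt, Bool.and_eq_true, decide_eq_true_eq] at hf
    simp only [Fac.val, List.getD_append _ _ _ _ hf.1, List.getD_append _ _ _ _ hf.2]
  | x i e =>
    simp only [Fac.lt, decide_eq_true_eq] at hf
    simp only [Fac.val, List.getD_append _ _ _ _ hf]

lemma valL_append {n : ℕ} {fs : List Fac} (hf : fs.all (Fac.lt n) = true) {acc rest : List P3}
    (hn : acc.length = n) : valL fs (acc ++ rest) = valL fs acc := by
  rw [valL, valL]
  congr 1
  apply List.map_congr_left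
  intro f hff
  exact val_append (List.all_eq_true.1 hf f hff) hn

theorem symL_eq_go : ∀ (lev : List (List Fac)) (rem acc : List P3),
    okL lev acc.length = true →
    symL (valLL lev) lev.length rem acc = go lev rem acc := by
  intro lev
  induction lev with
  | nil =>
    intro rem acc _
    rfl
  | cons fs lev ih =>
    intro rem acc hok
    rw [okL, Bool.and_eq_true] at hok
    rw [List.length_cons, symL, go]
    congr 1
    apply List.map_congr_left
    intro x _
    have hlen : (acc ++ [x.1]).length = acc.length + 1 := by simp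
    have h1 : symL (valLL (fs :: lev)) lev.length x.2 (acc ++ [x.1]) =
        symL (fun l => valL fs (acc ++ [x.1]) * valLL lev l) lev.length x.2 (acc ++ [x.1]) := by
      apply symL_congr
      intro rest
      rw [valLL, List.map_cons, List.prod_cons, valL_append hok.1 hlen]
      rfl
    rw [h1, symL_mul, ih x.2 (acc ++ [x.1]) (by rw [hlen]; exact hok.2)]
    split_ifs with h0
    · rw [h0, zero_mul]
    · rfl

/-- The index. -/
def ix (r : ℕ) [NeZero r] (i : ℕ) : Fin r := Fin.ofNat r i

/-- The polynomial of a factor. -/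
noncomputable def Fac.poly (r : ℕ) [NeZero r] : Fac → MvPolynomial (Fin r × Fin 3) ℂ
  | .b i j k e => br (ix r i) (ix r j) (ix r k) ^ e
  | .m i j e => (X (ix r i, 0) * X (ix r j, 1) - X (ix r i, 1) * X (ix r j, 0)) ^ e
  | .x i e => X (ix r i, 0) ^ e

/-- The product of all the factors. -/
noncomputable def QQp (r : ℕ) [NeZero r] (fs : List Fac) : MvPolynomial (Fin r × Fin 3) ℂ :=
  (fs.map (Fac.poly r)).prod

/-- The complex point. -/
noncomputable def cpt (P : P3) : Pt := ![(P.1 : ℂ), (P.2.1 : ℂ), (P.2.2 : ℂ)]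

lemma br_eq {r : ℕ} (i j k : Fin r) : br i j k =
    X (i, 0) * X (j, 1) * X (k, 2) - X (i, 0) * X (j, 2) * X (k, 1) -
      X (i, 1) * X (j, 0) * X (k, 2) + X (i, 1) * X (j, 2) * X (k, 0) +
      X (i, 2) * X (j, 0) * X (k, 1) - X (i, 2) * X (j, 1) * X (k, 0) := by
  rw [br, Matrix.det_fin_three]
  simp [Matrix.of_apply]

lemma getD_ofFn {r : ℕ} [NeZero r] (P : Fin r → P3) {i : ℕ} (hi : i < r) :
    (List.ofFn P).getD i 0 = P (ix r i) := by
  have h1 : ix r i = ⟨i, hi⟩ := by
    apply Fin.ext
    simp [ix, Fin.ofNat, Nat.mod_eq_of_lt hi]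
  rw [h1, List.getD_eq_getElem _ _ (by simpa using hi), List.getElem_ofFn]

lemma evp_fac {r : ℕ} [NeZero r] (P : Fin r → P3) {f : Fac} (hf : f.lt r = true) :
    evp (Fac.poly r f) (fun l => cpt (P l)) = ((Fac.val (List.ofFn P) f : ℤ) : ℂ) := by
  cases f with
  | b i j k e =>
    simp only [Fac.lt, Bool.and_eq_true, decide_eq_true_eq] at hf
    rw [Fac.poly, Fac.val, getD_ofFn P hf.1.1, getD_ofFn P hf.1.2, getD_ofFn P hf.2, pw_eq, evp,
      map_pow, br_eq]
    simp [cpt, det3]
    ring
  | m i j e =>
    simp only [Fac.lt, Bool.and_eq_true, decide_eq_true_eq] at hf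
    rw [Fac.poly, Fac.val, getD_ofFn P hf.1, getD_ofFn P hf.2, pw_eq, evp, map_pow]
    simp [cpt, det2]
  | x i e =>
    simp only [Fac.lt, decide_eq_true_eq] at hf
    rw [Fac.poly, Fac.val, getD_ofFn P hf, pw_eq, evp, map_pow]
    simp [cpt]

lemma evp_prod {r : ℕ} [NeZero r] (P : Fin r → P3) (fs : List Fac)
    (hf : fs.all (Fac.lt r) = true) :
    evp (QQp r fs) (fun l => cpt (P l)) = ((valL fs (List.ofFn P) : ℤ) : ℂ) := by
  induction fs with
  | nil => simp [QQp, valL, evp]
  | cons f fs ih =>
    rw [List.all_cons, Bool.and_eq_true] at hf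
    have h1 : QQp r (f :: fs) = Fac.poly r f * QQp r fs := by
      rw [QQp, QQp, List.map_cons, List.prod_cons]
    have h2 : valL (f :: fs) (List.ofFn P) = f.val (List.ofFn P) * valL fs (List.ofFn P) := by
      rw [valL, valL, List.map_cons, List.prod_cons]
    have h3 : evp (QQp r (f :: fs)) (fun l => cpt (P l)) =
        evp (Fac.poly r f) (fun l => cpt (P l)) * evp (QQp r fs) (fun l => cpt (P l)) := by
      rw [h1, evp, map_mul]
      rfl
    rw [h3, h2, ih hf.2, evp_fac P hf.1]
    push_cast
    rfl

/-- The weight in the point `l`. -/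
def wl {r : ℕ} (l : Fin r) : Fin r × Fin 3 → ℕ := fun s => if s.1 = l then 1 else 0

lemma wh_X {r : ℕ} (l : Fin r) (i : Fin r) (s : Fin 3) :
    IsWeightedHomogeneous (wl l) (X (i, s) : MvPolynomial (Fin r × Fin 3) ℂ)
      (if i = l then 1 else 0) :=
  isWeightedHomogeneous_X ℂ (wl l) (i, s)

lemma wh_fac {r : ℕ} [NeZero r] (l : Fin r) {f : Fac} (hf : f.lt r = true) :
    IsWeightedHomogeneous (wl l) (Fac.poly r f) (f.deg l) := by
  have hix : ∀ {i : ℕ}, i < r → ((if ix r i = l then 1 else 0 : ℕ) = if i = l then 1 else 0) := by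
    intro i hi
    have h1 : ix r i = ⟨i, hi⟩ := by
      apply Fin.ext
      simp [ix, Fin.ofNat, Nat.mod_eq_of_lt hi]
    rw [h1]
    by_cases h : i = (l : ℕ)
    · rw [if_pos h, if_pos (Fin.ext h)]
    · rw [if_neg h, if_neg (fun h' => h (congrArg Fin.val h'))]
  cases f with
  | b i j k e =>
    simp only [Fac.lt, Bool.and_eq_true, decide_eq_true_eq] at hf
    rw [Fac.poly, Fac.deg, ← hix hf.1.1, ← hix hf.1.2, ← hix hf.2, ← smul_eq_mul]
    apply IsWeightedHomogeneous.pow
    rw [br_eq]
    have h1 : ∀ a b c : Fin 3, IsWeightedHomogeneous (wl l)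
        (X (ix r i, a) * X (ix r j, b) * X (ix r k, c) : MvPolynomial (Fin r × Fin 3) ℂ)
        ((if ix r i = l then 1 else 0) + (if ix r j = l then 1 else 0) +
          (if ix r k = l then 1 else 0)) := fun a b c =>
      ((wh_X l _ a).mul (wh_X l _ b)).mul (wh_X l _ c)
    have hmem : ∀ q : MvPolynomial (Fin r × Fin 3) ℂ, IsWeightedHomogeneous (wl l) q
        ((if ix r i = l then 1 else 0) + (if ix r j = l then 1 else 0) +
          (if ix r k = l then 1 else 0)) ↔ q ∈ weightedHomogeneousSubmodule ℂ (wl l)
        ((if ix r i = l then 1 else 0) + (if ix r j = l then 1 else 0) +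
          (if ix r k = l then 1 else 0)) := fun q => (mem_weightedHomogeneousSubmodule _ _ _ _).symm
    rw [hmem]
    exact Submodule.sub_mem _ (Submodule.add_mem _ (Submodule.add_mem _ (Submodule.sub_mem _
      (Submodule.sub_mem _ ((hmem _).1 (h1 0 1 2)) ((hmem _).1 (h1 0 2 1)))
      ((hmem _).1 (h1 1 0 2))) ((hmem _).1 (h1 1 2 0))) ((hmem _).1 (h1 2 0 1)))
      ((hmem _).1 (h1 2 1 0))
  | m i j e =>
    simp only [Fac.lt, Bool.and_eq_true, decide_eq_true_eq] at hf
    rw [Fac.poly, Fac.deg, ← hix hf.1, ← hix hf.2, ← smul_eq_mul]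
    apply IsWeightedHomogeneous.pow
    have hmem : ∀ q : MvPolynomial (Fin r × Fin 3) ℂ, IsWeightedHomogeneous (wl l) q
        ((if ix r i = l then 1 else 0) + (if ix r j = l then 1 else 0)) ↔
        q ∈ weightedHomogeneousSubmodule ℂ (wl l)
        ((if ix r i = l then 1 else 0) + (if ix r j = l then 1 else 0)) :=
      fun q => (mem_weightedHomogeneousSubmodule _ _ _ _).symm
    rw [hmem]
    exact Submodule.sub_mem _ ((hmem _).1 ((wh_X l _ 0).mul (wh_X l _ 1)))
      ((hmem _).1 ((wh_X l _ 1).mul (wh_X l _ 0)))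
  | x i e =>
    simp only [Fac.lt, decide_eq_true_eq] at hf
    rw [Fac.poly, Fac.deg, ← hix hf, ← smul_eq_mul]
    exact (wh_X l _ 0).pow e

lemma wh_prod {r : ℕ} [NeZero r] (l : Fin r) (fs : List Fac) (hf : fs.all (Fac.lt r) = true) :
    IsWeightedHomogeneous (wl l) (QQp r fs) ((fs.map (Fac.deg l)).sum) := by
  induction fs with
  | nil => exact isWeightedHomogeneous_one ℂ _
  | cons f fs ih =>
    rw [List.all_cons, Bool.and_eq_true] at hf
    rw [QQp, List.map_cons, List.prod_cons, List.map_cons, List.sum_cons]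
    exact (wh_fac l hf.1).mul (ih hf.2)

lemma semi_fac {r : ℕ} [NeZero r] (f : Fac) : Semi f.wt (Fac.poly r f) := by
  intro g hg p
  have h10 : g 1 0 = 0 := hg.1 1 0 (by decide)
  have h20 : g 2 0 = 0 := hg.1 2 0 (by decide)
  have h21 : g 2 1 = 0 := hg.1 2 1 (by decide)
  have v0 : ∀ q : Pt, Matrix.vecMul q g 0 = q 0 * g 0 0 := by
    intro q
    simp [Matrix.vecMul, dotProduct, Fin.sum_univ_three, h10, h20]
  have v1 : ∀ q : Pt, Matrix.vecMul q g 1 = q 0 * g 0 1 + q 1 * g 1 1 := by
    intro q
    simp [Matrix.vecMul, dotProduct, Fin.sum_univ_three, h21]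
  have v2 : ∀ q : Pt, Matrix.vecMul q g 2 = q 0 * g 0 2 + q 1 * g 1 2 + q 2 * g 2 2 := by
    intro q
    simp [Matrix.vecMul, dotProduct, Fin.sum_univ_three]
  cases f with
  | b i j k e =>
    rw [Fac.poly, map_pow, map_pow, br_eq]
    simp only [map_add, map_sub, map_mul, eval_X, v0, v1, v2, Fac.wt, Fin.prod_univ_three]
    simp only [Matrix.cons_val_zero, Matrix.cons_val_one, Matrix.cons_val]
    rw [← mul_pow, ← mul_pow, ← mul_pow]
    congr 1
    ring
  | m i j e =>
    rw [Fac.poly, map_pow, map_pow]
    simp only [map_sub, map_mul, eval_X, v0, v1, Fac.wt, Fin.prod_univ_three]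
    simp only [Matrix.cons_val_zero, Matrix.cons_val_one, Matrix.cons_val, pow_zero, mul_one]
    rw [← mul_pow, ← mul_pow]
    congr 1
    ring
  | x i e =>
    rw [Fac.poly, map_pow, map_pow]
    simp only [eval_X, v0, Fac.wt, Fin.prod_univ_three]
    simp only [Matrix.cons_val_zero, Matrix.cons_val_one, Matrix.cons_val, pow_zero, mul_one]
    rw [← mul_pow]
    congr 1
    ring

lemma semi_prod {r : ℕ} [NeZero r] (fs : List Fac) :
    Semi (fun s => (fs.map fun f => f.wt s).sum) (QQp r fs) := by
  induction fs with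
  | nil => intro g hg p; simp [QQp]
  | cons f fs ih =>
    intro g hg p
    have h1 : QQp r (f :: fs) = Fac.poly r f * QQp r fs := by
      rw [QQp, QQp, List.map_cons, List.prod_cons]
    rw [h1, map_mul, map_mul, semi_fac f g hg p, ih g hg p]
    have h2 : ∀ i : Fin 3, g i i ^ (((f :: fs).map fun f => f.wt i).sum) =
        g i i ^ f.wt i * g i i ^ ((fs.map fun f => f.wt i).sum) := by
      intro i
      rw [List.map_cons, List.sum_cons, pow_add]
    simp only [h2, Finset.prod_mul_distrib]
    ring

lemma valLL_eq (lev : List (List Fac)) (l : List P3) : valLL lev l = valL lev.flatten l := by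
  induction lev with
  | nil => rfl
  | cons fs lev ih =>
    have h1 : valL (fs ++ lev.flatten) l = valL fs l * valL lev.flatten l := by
      rw [valL, valL, valL, List.map_append, List.prod_append]
    rw [valLL, List.map_cons, List.prod_cons, List.flatten_cons, h1, ← ih]
    rfl

/-- **The criterion.** -/
theorem pos_of_data
    (C0 : ∀ {r c : ℕ} {lam : Fin 3 → ℕ} (Q : MvPolynomial (Fin r × Fin 3) ℂ), Multi c r Q →
      Semi lam Q → ∀ p : Fin r → Pt,
        ∑ σ : Equiv.Perm (Fin r), evp Q (fun l => p (σ l)) ≠ 0 → Pos r c 3 lam)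
    {r c : ℕ} [NeZero r] (lev : List (List Fac)) (P : Fin r → P3) (lam : Fin 3 → ℕ)
    (hlen : lev.length = r) (hok : okL lev 0 = true)
    (hlt : lev.flatten.all (Fac.lt r) = true)
    (hdeg : ∀ l : Fin r, (lev.flatten.map (Fac.deg l)).sum = c)
    (hlam : ∀ s : Fin 3, (lev.flatten.map fun f => f.wt s).sum = lam s)
    (hgo : go lev (List.ofFn P) [] ≠ 0) : Pos r c 3 lam := by
  have h1 : Semi lam (QQp r lev.flatten) := by
    have h2 := semi_prod (r := r) lev.flatten
    have h3 : (fun s => (lev.flatten.map fun f => f.wt s).sum) = lam := funext hlam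
    rwa [h3] at h2
  refine C0 (QQp r lev.flatten) ?_ h1 (fun l => cpt (P l)) ?_
  · intro l
    have h2 := wh_prod l lev.flatten hlt
    rw [hdeg l] at h2
    exact h2
  · have h2 : ∀ σ : Equiv.Perm (Fin r), evp (QQp r lev.flatten) (fun l => cpt (P (σ l))) =
        ((valLL lev ([] ++ List.ofFn (fun l => P (σ l))) : ℤ) : ℂ) := by
      intro σ
      rw [evp_prod (fun l => P (σ l)) lev.flatten hlt, List.nil_append, valLL_eq]
    rw [Finset.sum_congr rfl fun σ _ => h2 σ, ← Int.cast_sum, ← symL_eq]
    have h3 : symL (valLL lev) r (List.ofFn P) [] = go lev (List.ofFn P) [] := by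
      rw [← symL_eq_go lev (List.ofFn P) [] hok, hlen]
    rw [h3]
    exact Int.cast_ne_zero.2 hgo

end Vale.Agent.P181.H556C
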