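import Vale.Agent.P181.R2.H556.ThreeDefs

set_option autoImplicit false

open MvPolynomial

namespace Vale.Agent.P181.T3R

open Vale.Agent.P181 Vale.Agent.P181.H536 Vale.Agent.P181.H280

/-- The shear `X 0 ↦ X 0 + α * X 2`, `X 1 ↦ X 1 + β * X 2`. -/
noncomputable def sh2 (α β : ℂ) : S3 →ₐ[ℂ] S3 := aeval ![X 0 + α • X 2, X 1 + β • X 2, X 2]

lemma sh2_X0 (α β : ℂ) : sh2 α β (X 0) = X 0 + α • X 2 := by simp [sh2]
lemma sh2_X1 (α β : ℂ) : sh2 α β (X 1) = X 1 + β • X 2 := by simp [sh2]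
lemma sh2_X2 (α β : ℂ) : sh2 α β (X 2) = X 2 := by simp [sh2]

lemma sh2_line (α β x c : ℂ) :
    sh2 α β (ln x + c • X 2) = ln x + (c + (α + x * β)) • X 2 := by
  rw [ln, map_add, map_add, map_smul, map_smul, sh2_X0, sh2_X1, sh2_X2]
  simp only [smul_add, add_smul, smul_smul]
  abel

lemma tau_line (d x c : ℂ) : tau d (ln x + c • X 2) = ln x + (d * c) • X 2 := by
  rw [ln, map_add, map_add, map_smul, map_smul, tau_X0, tau_X1, tau_X2, smul_smul, mul_comm c d]

lemma sh2_mem {d : ℕ} (α β : ℂ) {P : S3} (hP : P ∈ linS 3 ^ d) : sh2 α β P ∈ linS 3 ^ d := by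
  have h1 : (linS 3 ^ d).map (sh2 α β).toLinearMap ≤ linS 3 ^ d := by
    rw [Submodule.map_pow]
    apply pow_le_pow_left'
    rw [linS, Submodule.map_span, Submodule.span_le]
    rintro _ ⟨_, ⟨i, rfl⟩, rfl⟩
    change sh2 α β (X i) ∈ linS 3
    fin_cases i
    · change sh2 α β (X 0) ∈ linS 3
      rw [sh2_X0]
      exact (linS 3).add_mem (X_mem_linS _) ((linS 3).smul_mem _ (X_mem_linS _))
    · change sh2 α β (X 1) ∈ linS 3
      rw [sh2_X1]
      exact (linS 3).add_mem (X_mem_linS _) ((linS 3).smul_mem _ (X_mem_linS _))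
    · change sh2 α β (X 2) ∈ linS 3
      rw [sh2_X2]; exact X_mem_linS _
  exact h1 ⟨P, hP, rfl⟩

/-- Invariance under all shears in degree `b`. -/
def Inv2 (b : ℕ) {a : ℕ} (F : Fm a) : Prop :=
  ∀ (α β : ℂ) (P : Fin a → S3), Dg b P → F (fun i => sh2 α β (P i)) = F P

/-- The statement `K(a, b, t)`: no nonzero shear invariant form of weight `t` in the kernel. -/
def KK2 (a b t : ℕ) : Prop :=
  ∀ F : Fm a, IsSymm F → Inv2 b F → Hom b t F → IsK (linS 3) b F → Van b F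

/-- The same with the degree condition `QQ s`. -/
def LK (s a b t : ℕ) : Prop :=
  ∀ F : Fm a, IsSymm F → Inv2 b F → Hom b t F → IsK (linS 3) b F → QQ s b F → Van b F

end Vale.Agent.P181.T3R
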